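import Vale.Agent.P356.Defs

/-!
# P356, row ACT: operators acting on a set of sites
-/

open Finset
open scoped ComplexOrder

namespace Vale.Agent.P356

variable {V : Type} [Fintype V] [DecidableEq V] {q : ℕ}

omit [Fintype V] [DecidableEq V] in
/-- Coordinatewise permutations which are trivial on `X` do not change the matrix entries of an
operator acting on `X`. -/
theorem ActsOn.perm {X : Finset V} {h : Op V q} (hh : ActsOn X h) (σ : V → Equiv.Perm (Fin q))
    (hσ : ∀ z ∈ X, σ z = 1) (x y : Cfg V q) :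
    h (fun z => σ z (x z)) (fun z => σ z (y z)) = h x y := by
  by_cases hxy : ∃ z, z ∉ X ∧ x z ≠ y z
  · obtain ⟨z, hz, hne⟩ := hxy
    rw [hh.1 x y ⟨z, hz, hne⟩, hh.1 _ _ ⟨z, hz, fun e => hne ((σ z).injective e)⟩]
  · push Not at hxy
    refine hh.2 _ _ _ _ (fun z hz => ?_) (fun z hz => ?_)
    · rw [hσ z hz]
      exact ⟨rfl, rfl⟩
    · refine ⟨?_, hxy z hz⟩
      simp only [hxy z hz]

/-- ROW ACT (Act.lean) -/
theorem ActsOn.mul {X : Finset V} {h k : Op V q} (hh : ActsOn X h) (hk : ActsOn X k) :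
    ActsOn X (h * k) := by
  refine ⟨?_, ?_⟩
  · rintro x y ⟨z, hz, hne⟩
    rw [Matrix.mul_apply]
    refine Finset.sum_eq_zero fun w _ => ?_
    by_cases hw : x z = w z
    · rw [hk.1 w y ⟨z, hz, fun e => hne (hw.trans e)⟩, mul_zero]
    · rw [hh.1 x w ⟨z, hz, hw⟩, zero_mul]
  · intro x y x' y' h1 h2
    set σ : V → Equiv.Perm (Fin q) := fun z => if z ∈ X then 1 else Equiv.swap (x z) (x' z)
      with hσ
    have hσ1 : ∀ z ∈ X, σ z = 1 := by
      intro z hz
      simp only [hσ, if_pos hz]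
    have ex : (fun z => σ z (x z)) = x' := by
      funext z
      by_cases hz : z ∈ X
      · rw [hσ1 z hz]
        exact (h1 z hz).1
      · simp only [hσ, if_neg hz, Equiv.swap_apply_left]
    have ey : (fun z => σ z (y z)) = y' := by
      funext z
      by_cases hz : z ∈ X
      · rw [hσ1 z hz]
        exact (h1 z hz).2
      · rw [← (h2 z hz).1, ← (h2 z hz).2]
        simp only [hσ, if_neg hz, Equiv.swap_apply_left]
    rw [Matrix.mul_apply, Matrix.mul_apply,
      ← Equiv.sum_comp (Equiv.piCongrRight σ) (fun w => h x' w * k w y')]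
    refine Finset.sum_congr rfl fun w _ => ?_
    have e1 := hh.perm σ hσ1 x w
    have e2 := hk.perm σ hσ1 w y
    rw [ex] at e1
    rw [ey] at e2
    rw [← e1, ← e2]
    rfl

omit [Fintype V] [DecidableEq V] in
/-- ROW ACT -/
theorem ActsOn.mono {X Y : Finset V} (hXY : X ⊆ Y) {h : Op V q} (hh : ActsOn X h) :
    ActsOn Y h := by
  refine ⟨?_, ?_⟩
  · rintro x y ⟨z, hz, hne⟩
    exact hh.1 x y ⟨z, fun hzX => hz (hXY hzX), hne⟩
  · intro x y x' y' h1 h2
    by_cases hxy : ∃ z, z ∉ X ∧ x z ≠ y z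
    · obtain ⟨z, hz, hne⟩ := hxy
      have hzY : z ∈ Y := by
        by_contra hcon
        exact hne (h2 z hcon).1
      rw [hh.1 x y ⟨z, hz, hne⟩, hh.1 x' y' ⟨z, hz, fun e => hne (by
        rw [(h1 z hzY).1, (h1 z hzY).2, e])⟩]
    · push Not at hxy
      refine hh.2 _ _ _ _ (fun z hz => h1 z (hXY hz)) (fun z hz => ⟨hxy z hz, ?_⟩)
      by_cases hzY : z ∈ Y
      · rw [← (h1 z hzY).1, ← (h1 z hzY).2]
        exact hxy z hz
      · exact (h2 z hzY).2

/-- ROW ACT -/
theorem ActsOn.scalar (X : Finset V) (c : ℂ) : ActsOn X (c • (1 : Op V q)) := by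
  refine ⟨?_, ?_⟩
  · rintro x y ⟨z, _, hne⟩
    have : x ≠ y := fun e => hne (by rw [e])
    simp [this]
  · intro x y x' y' h1 h2
    have : x = y ↔ x' = y' := by
      constructor
      · intro e
        funext z
        by_cases hz : z ∈ X
        · rw [← (h1 z hz).1, ← (h1 z hz).2, e]
        · exact (h2 z hz).2
      · intro e
        funext z
        by_cases hz : z ∈ X
        · rw [(h1 z hz).1, (h1 z hz).2, e]
        · exact (h2 z hz).1
    by_cases e : x = y
    · simp [e, this.1 e]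
    · have e' : ¬ x' = y' := fun h => e (this.2 h)
      simp [e, e']

end Vale.Agent.P356
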