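import Vale.Agent.P356.Act

/-!
# P356: sums and polynomials of operators acting on a set of sites
-/

open Finset
open scoped ComplexOrder

namespace Vale.Agent.P356

variable {V : Type} [Fintype V] [DecidableEq V] {q : ℕ}

omit [Fintype V] [DecidableEq V] in
theorem ActsOn.add {X : Finset V} {h k : Op V q} (hh : ActsOn X h) (hk : ActsOn X k) :
    ActsOn X (h + k) := by
  refine ⟨fun x y hz => ?_, fun x y x' y' h1 h2 => ?_⟩
  · rw [Matrix.add_apply, hh.1 x y hz, hk.1 x y hz, add_zero]
  · rw [Matrix.add_apply, Matrix.add_apply, hh.2 x y x' y' h1 h2, hk.2 x y x' y' h1 h2]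

omit [Fintype V] [DecidableEq V] in
theorem ActsOn.zero (X : Finset V) : ActsOn X (0 : Op V q) :=
  ⟨fun _ _ _ => rfl, fun _ _ _ _ _ _ => rfl⟩

omit [Fintype V] [DecidableEq V] in
theorem ActsOn.smul {X : Finset V} {h : Op V q} (c : ℂ) (hh : ActsOn X h) :
    ActsOn X (c • h) := by
  refine ⟨fun x y hz => ?_, fun x y x' y' h1 h2 => ?_⟩
  · rw [Matrix.smul_apply, hh.1 x y hz, smul_zero]
  · rw [Matrix.smul_apply, Matrix.smul_apply, hh.2 x y x' y' h1 h2]

omit [Fintype V] [DecidableEq V] in
theorem ActsOn.sum {X : Finset V} {ι : Type*} (s : Finset ι) {h : ι → Op V q}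
    (hh : ∀ i ∈ s, ActsOn X (h i)) : ActsOn X (∑ i ∈ s, h i) := by
  classical
  induction s using Finset.induction_on with
  | empty =>
    rw [Finset.sum_empty]
    exact ActsOn.zero X
  | insert a s ha ih =>
    rw [Finset.sum_insert ha]
    exact (hh a (Finset.mem_insert_self a s)).add
      (ih fun i hi => hh i (Finset.mem_insert_of_mem hi))

theorem actsOn_adjoin {X : Finset V} {S : Set (Op V q)} (hS : ∀ K ∈ S, ActsOn X K) {B : Op V q}
    (hB : B ∈ Algebra.adjoin ℂ S) : ActsOn X B := by
  induction hB using Algebra.adjoin_induction with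
  | mem x hx => exact hS x hx
  | algebraMap r =>
    rw [Algebra.algebraMap_eq_smul_one]
    exact ActsOn.scalar X r
  | add x y _ _ hx hy => exact hx.add hy
  | mul x y _ _ hx hy => exact hx.mul hy

end Vale.Agent.P356
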