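import Vale.Agent.P356.Defs

open Finset

namespace Vale.Agent.P356

theorem ball_card {L : ℕ} (p : Site L) (w : ℕ) :
    (univ.filter fun y : Site L => d1 y p ≤ w).card ≤ (2 * w + 1) ^ 2 := by
  classical
  have h : (univ.filter fun y : Site L => d1 y p ≤ w).card ≤
      ((Finset.Icc ((p.1 : ℤ) - w) ((p.1 : ℤ) + w)) ×ˢ
        (Finset.Icc ((p.2 : ℤ) - w) ((p.2 : ℤ) + w))).card := by
    apply Finset.card_le_card_of_injOn (fun x : Site L => ((x.1 : ℤ), (x.2 : ℤ)))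
    · intro x hx
      have hx' : d1 x p ≤ w := by simpa using hx
      simp only [d1] at hx'
      simp only [Finset.coe_product, Finset.coe_Icc, Set.mem_prod, Set.mem_Icc]
      refine ⟨⟨?_, ?_⟩, ⟨?_, ?_⟩⟩ <;> omega
    · intro a _ b _ hab
      simp only [Prod.mk.injEq, Nat.cast_inj] at hab
      exact Prod.ext (Fin.ext hab.1) (Fin.ext hab.2)
  refine h.trans (le_of_eq ?_)
  rw [Finset.card_product, Int.card_Icc, Int.card_Icc]
  have e1 : ((p.1 : ℤ) + w + 1 - ((p.1 : ℤ) - w)).toNat = 2 * w + 1 := by omega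
  have e2 : ((p.2 : ℤ) + w + 1 - ((p.2 : ℤ) - w)).toNat = 2 * w + 1 := by omega
  rw [e1, e2, sq]

/-- a neighbour of `b` which is one step closer to `a` -/
theorem exists_step {L : ℕ} (a b : Site L) (hab : a ≠ b) :
    ∃ c : Site L, d1 c b = 1 ∧ d1 a c + 1 = d1 a b := by
  obtain ⟨a1, a2⟩ := a
  obtain ⟨b1, b2⟩ := b
  obtain ⟨a1, ha1⟩ := a1
  obtain ⟨a2, ha2⟩ := a2
  obtain ⟨b1, hb1⟩ := b1
  obtain ⟨b2, hb2⟩ := b2
  simp only [ne_eq, Prod.mk.injEq, Fin.mk.injEq, not_and_or] at hab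
  simp only [d1, Prod.exists]
  rcases lt_trichotomy a1 b1 with h | h | h
  · refine ⟨⟨b1 - 1, by omega⟩, ⟨b2, hb2⟩, ?_, ?_⟩ <;> simp only <;> omega
  · rcases lt_trichotomy a2 b2 with h' | h' | h'
    · refine ⟨⟨b1, hb1⟩, ⟨b2 - 1, by omega⟩, ?_, ?_⟩ <;> simp only <;> omega
    · omega
    · refine ⟨⟨b1, hb1⟩, ⟨b2 + 1, by omega⟩, ?_, ?_⟩ <;> simp only <;> omega
  · refine ⟨⟨b1 + 1, by omega⟩, ⟨b2, hb2⟩, ?_, ?_⟩ <;> simp only <;> omega

theorem exists_bdry {L : ℕ} (A : Finset (Site L)) (a b : Site L) (ha : a ∈ A) (hb : b ∉ A) :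
    ∃ p ∈ bdry A, d1 a p.1 ≤ d1 a b := by
  induction hn : d1 a b generalizing b with
  | zero =>
    exfalso
    apply hb
    have hab : a = b := by
      obtain ⟨⟨a1, ha1⟩, ⟨a2, ha2⟩⟩ := a
      obtain ⟨⟨b1, hb1⟩, ⟨b2, hb2⟩⟩ := b
      simp only [d1] at hn
      simp only [Prod.mk.injEq, Fin.mk.injEq]
      omega
    rw [← hab]; exact ha
  | succ n ih =>
    have hab : a ≠ b := fun h => hb (h ▸ ha)
    obtain ⟨c, hc1, hc2⟩ := exists_step a b hab
    by_cases hc : c ∈ A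
    · refine ⟨(c, b), ?_, ?_⟩
      · simp only [bdry, Finset.mem_filter, Finset.mem_univ, true_and]
        exact ⟨hc, hb, hc1⟩
      · simp only; omega
    · obtain ⟨p, hp, hd⟩ := ih c hc (by omega)
      exact ⟨p, hp, by omega⟩

/-- a set of sites all of which are within distance `w` of inner endpoints of boundary edges -/
theorem near_card {L : ℕ} (A : Finset (Site L)) (w : ℕ) (N : Finset (Site L))
    (h : ∀ x ∈ N, ∃ p ∈ bdry A, d1 x p.1 ≤ w) :
    N.card ≤ (2 * w + 1) ^ 2 * (bdry A).card := by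
  classical
  have hsub : N ⊆ (bdry A).biUnion fun e => univ.filter fun x : Site L => d1 x e.1 ≤ w := by
    intro x hx
    obtain ⟨e, he, hd⟩ := h x hx
    exact Finset.mem_biUnion.2 ⟨e, he, by simpa using hd⟩
  calc N.card ≤ _ := Finset.card_le_card hsub
    _ ≤ (bdry A).card * (2 * w + 1) ^ 2 :=
        Finset.card_biUnion_le_card_mul _ _ _ fun e _ => ball_card e.1 w
    _ = _ := mul_comm _ _

theorem d1_comm {L : ℕ} (x y : Site L) : d1 x y = d1 y x := by
  simp only [d1]; omega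

theorem d1_triangle {L : ℕ} (x y z : Site L) : d1 x z ≤ d1 x y + d1 y z := by
  simp only [d1]; omega

end Vale.Agent.P356
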