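import Vale.Agent.P356.Defs

open Finset Matrix
open scoped ComplexOrder

namespace Vale.Agent.P356

variable {V : Type} [Fintype V] [DecidableEq V] {q : ℕ}

/-- A simple eigenvector of `H0 + K` is obtained from any eigenvector of `H0` that overlaps with
it by an operator of the algebra generated by `K`. -/
theorem cyc (K H0 : Op V q) (hK : K.IsHermitian) (hcomm : Commute K H0)
    (Ω : Cfg V q → ℂ) (E : ℂ) (hE : (H0 + K).mulVec Ω = E • Ω) (hne : Ω ≠ 0)
    (hs : ∀ v : Cfg V q → ℂ, (H0 + K).mulVec v = E • v → ∃ c : ℂ, v = c • Ω)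
    (e : ℂ) (he : H0.mulVec Ω = e • Ω)
    (φ : Cfg V q → ℂ) (hφ : H0.mulVec φ = e • φ) (hov : ∑ x, star (φ x) * Ω x ≠ 0) :
    ∃ B ∈ Algebra.adjoin ℂ {K}, Ω = B.mulVec φ := by
  have _ := hne
  set S : Submodule ℂ (Cfg V q → ℂ) :=
    (Subalgebra.toSubmodule (Algebra.adjoin ℂ {K})).map
      ((LinearMap.applyₗ φ).comp (Matrix.toLin' (R := ℂ) (m := Cfg V q) (n := Cfg V q)).toLinearMap) with hS
  have memS : ∀ v, v ∈ S ↔ ∃ B ∈ Algebra.adjoin ℂ {K}, v = B.mulVec φ := by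
    intro v
    rw [hS, Submodule.mem_map]
    constructor
    · rintro ⟨B, hB, rfl⟩
      exact ⟨B, hB, by simp⟩
    · rintro ⟨B, hB, rfl⟩
      exact ⟨B, hB, by simp⟩
  have hdec : ∃ ω ∈ S, ∃ η : Cfg V q → ℂ, (∀ s ∈ S, star s ⬝ᵥ η = 0) ∧ Ω = ω + η := by
    set S' : Submodule ℂ (EuclideanSpace ℂ (Cfg V q)) :=
      S.map (WithLp.linearEquiv 2 ℂ (Cfg V q → ℂ)).symm.toLinearMap with hS'
    obtain ⟨y, hy, z, hz, hyz⟩ := Submodule.exists_add_mem_mem_orthogonal (K := S') (WithLp.toLp 2 Ω)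
    rw [hS', Submodule.mem_map] at hy
    obtain ⟨y0, hy0, hy1⟩ := hy
    refine ⟨y0, hy0, WithLp.ofLp z, ?_, ?_⟩
    · intro s hs
      have h1 : (WithLp.toLp 2 s : EuclideanSpace ℂ (Cfg V q)) ∈ S' := by
        rw [hS', Submodule.mem_map]
        exact ⟨s, hs, rfl⟩
      have h2 := (Submodule.mem_orthogonal S' z).1 hz _ h1
      rw [EuclideanSpace.inner_eq_star_dotProduct] at h2
      rw [dotProduct_comm]
      exact h2
    · have h3 := congrArg (WithLp.ofLp) hyz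
      rw [← hy1] at h3
      simpa using h3
  obtain ⟨ω, hω, η, hη, hsum⟩ := hdec
  have hφS : φ ∈ S := (memS φ).2 ⟨1, one_mem _, by simp⟩
  have hKS : ∀ s ∈ S, K.mulVec s ∈ S := by
    intro s hs'
    obtain ⟨B, hB, rfl⟩ := (memS s).1 hs'
    exact (memS _).2 ⟨K * B, mul_mem (Algebra.subset_adjoin rfl) hB, by rw [mulVec_mulVec]⟩
  have hcen : ∀ B ∈ Algebra.adjoin ℂ {K}, Commute B H0 := by
    intro B hB
    have h1 : Algebra.adjoin ℂ {K} ≤ Subalgebra.centralizer ℂ {H0} := by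
      rw [Algebra.adjoin_le_iff]
      intro k hk
      rw [Set.mem_singleton_iff] at hk
      subst hk
      rw [SetLike.mem_coe, Subalgebra.mem_centralizer_iff]
      intro g hg
      rw [Set.mem_singleton_iff] at hg
      subst hg
      exact hcomm.symm
    have h2 := (Subalgebra.mem_centralizer_iff ℂ).1 (h1 hB) H0 rfl
    exact h2.symm
  have hH0S : ∀ s ∈ S, H0.mulVec s = e • s := by
    intro s hs'
    obtain ⟨B, hB, rfl⟩ := (memS s).1 hs'
    rw [mulVec_mulVec, ← (hcen B hB).eq, ← mulVec_mulVec, hφ, mulVec_smul]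
  have hKΩ : K.mulVec Ω = (E - e) • Ω := by
    rw [add_mulVec, he] at hE
    rw [sub_smul, ← hE]
    abel
  have hKη : ∀ s ∈ S, star s ⬝ᵥ K.mulVec η = 0 := by
    intro s hs'
    rw [dotProduct_mulVec]
    have h1 : star s ᵥ* K = star (K.mulVec s) := by
      rw [star_mulVec, hK.eq]
    rw [h1]
    exact hη _ (hKS s hs')
  have hd : K.mulVec ω - (E - e) • ω = 0 := by
    have hdS : K.mulVec ω - (E - e) • ω ∈ S := S.sub_mem (hKS ω hω) (S.smul_mem _ hω)
    have h1 : K.mulVec ω - (E - e) • ω = -(K.mulVec η - (E - e) • η) := by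
      have h2 := hKΩ
      rw [hsum, mulVec_add, smul_add] at h2
      have h3 : K.mulVec ω = (E - e) • ω + (E - e) • η - K.mulVec η := by
        rw [← h2]; abel
      rw [h3]; abel
    have h2 : star (K.mulVec ω - (E - e) • ω) ⬝ᵥ (K.mulVec ω - (E - e) • ω) = 0 := by
      have h3 : star (K.mulVec ω - (E - e) • ω) ⬝ᵥ (-(K.mulVec η - (E - e) • η)) = 0 := by
        rw [dotProduct_neg, dotProduct_sub, dotProduct_smul, hKη _ hdS, hη _ hdS]
        simp
      rw [← h1] at h3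
      exact h3
    exact dotProduct_star_self_eq_zero.1 h2
  have hω1 : (H0 + K).mulVec ω = E • ω := by
    rw [add_mulVec, hH0S ω hω, sub_eq_zero.1 hd, sub_smul]
    abel
  obtain ⟨l, hl⟩ := hs ω hω1
  have hl0 : l ≠ 0 := by
    rintro rfl
    rw [zero_smul] at hl
    apply hov
    have h1 := hη φ hφS
    rw [hl, zero_add] at hsum
    rw [← hsum] at h1
    simpa [dotProduct] using h1
  obtain ⟨B, hB, hBω⟩ := (memS ω).1 hω
  refine ⟨l⁻¹ • B, Subalgebra.smul_mem _ hB _, ?_⟩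
  rw [smul_mulVec, ← hBω, hl, smul_smul, inv_mul_cancel₀ hl0, one_smul]

end Vale.Agent.P356
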