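import Mathlib

/-!
Entanglement entropy of eigenvectors of finite-range Hamiltonians on the square lattice (P356).
-/

open Finset

namespace Vale.Agent.P356

/-- Configurations: the standard basis of the tensor product of `q`-dimensional spaces over the
sites `V`. -/
abbrev Cfg (V : Type) (q : ℕ) : Type := V → Fin q

/-- Operators on the tensor product, as matrices in the standard basis. -/
abbrev Op (V : Type) (q : ℕ) : Type := Matrix (Cfg V q) (Cfg V q) ℂ

/-- `h` acts on the tensor factors in `X` and as the identity elsewhere. -/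
def ActsOn {V : Type} {q : ℕ} (X : Finset V) (h : Op V q) : Prop :=
  (∀ x y : Cfg V q, (∃ z, z ∉ X ∧ x z ≠ y z) → h x y = 0) ∧
  ∀ x y x' y' : Cfg V q, (∀ z ∈ X, x z = x' z ∧ y z = y' z) →
    (∀ z, z ∉ X → x z = y z ∧ x' z = y' z) → h x y = h x' y'

/-- The configuration equal to `a` on `A` and to `b` off `A`. -/
def glue {V : Type} [DecidableEq V] {q : ℕ} (A : Finset V) (a : {z // z ∈ A} → Fin q)
    (b : {z // z ∉ A} → Fin q) : Cfg V q :=
  fun z => if hz : z ∈ A then a ⟨z, hz⟩ else b ⟨z, hz⟩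

/-- The coefficients of `Ω`, as a matrix between `A` and its complement. -/
def coefM {V : Type} [DecidableEq V] {q : ℕ} (A : Finset V) (Ω : Cfg V q → ℂ) :
    Matrix ({z // z ∈ A} → Fin q) ({z // z ∉ A} → Fin q) ℂ :=
  Matrix.of fun a b => Ω (glue A a b)

/-- The reduced density matrix of `Ω` on `A` (the trace over the complement of `A` of the
projection onto `Ω`). -/
noncomputable def rho {V : Type} [Fintype V] [DecidableEq V] {q : ℕ} (A : Finset V)
    (Ω : Cfg V q → ℂ) : Matrix ({z // z ∈ A} → Fin q) ({z // z ∈ A} → Fin q) ℂ :=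
  Matrix.of fun a a' => ∑ b : {z // z ∉ A} → Fin q, Ω (glue A a b) * star (Ω (glue A a' b))

theorem rho_eq {V : Type} [Fintype V] [DecidableEq V] {q : ℕ} (A : Finset V)
    (Ω : Cfg V q → ℂ) : rho A Ω = coefM A Ω * (coefM A Ω).conjTranspose := by
  ext a a'
  simp [rho, coefM, Matrix.mul_apply]

theorem rho_herm {V : Type} [Fintype V] [DecidableEq V] {q : ℕ} (A : Finset V)
    (Ω : Cfg V q → ℂ) : (rho A Ω).IsHermitian := by
  rw [rho_eq]
  exact Matrix.isHermitian_mul_conjTranspose_self _

/-- The entanglement entropy (natural logarithm; `0 log 0 = 0`). -/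
noncomputable def entropy {V : Type} [Fintype V] [DecidableEq V] {q : ℕ} (A : Finset V)
    (Ω : Cfg V q → ℂ) : ℝ :=
  ∑ i, Real.negMulLog ((rho_herm A Ω).eigenvalues i)

/-- The sites of the `L × L` square. -/
abbrev Site (L : ℕ) : Type := Fin L × Fin L

/-- The `ℓ¹` distance. -/
def d1 {L : ℕ} (x y : Site L) : ℕ :=
  ((x.1 : ℤ) - (y.1 : ℤ)).natAbs + ((x.2 : ℤ) - (y.2 : ℤ)).natAbs

/-- The edge boundary: pairs `(x, y)` with `x ∈ A`, `y ∉ A` at distance `1`. -/
def bdry {L : ℕ} (A : Finset (Site L)) : Finset (Site L × Site L) :=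
  Finset.univ.filter fun p => p.1 ∈ A ∧ p.2 ∉ A ∧ d1 p.1 p.2 = 1

end Vale.Agent.P356
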