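import Mathlib

namespace Vale.Agent.P356

open Real Finset
open scoped ComplexOrder

/-- the entropy of a probability vector with at most `r` nonzero entries is at most `log r` -/
lemma Ent94.ent_vec {ι : Type*} [Fintype ι] [DecidableEq ι] {p : ι → ℝ} (h0 : ∀ i, 0 ≤ p i)
    (h1 : ∑ i, p i = 1) {r : ℕ} (hr : (univ.filter fun i => p i ≠ 0).card ≤ r) :
    ∑ i, negMulLog (p i) ≤ Real.log r := by
  set s := univ.filter fun i => p i ≠ 0 with hs
  have hsum : ∑ i ∈ s, p i = 1 := by
    rw [← h1, hs, sum_filter]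
    apply sum_congr rfl
    intro i _
    split_ifs with h
    · rfl
    · exact (not_not.1 h).symm
  have hne : s.Nonempty := by
    rw [nonempty_iff_ne_empty]
    intro h
    rw [h] at hsum
    simp at hsum
  have hk : 0 < (s.card : ℝ) := by exact_mod_cast hne.card_pos
  have hsum2 : ∑ i, negMulLog (p i) = ∑ i ∈ s, negMulLog (p i) := by
    rw [hs, sum_filter]
    apply sum_congr rfl
    intro i _
    split_ifs with h
    · rfl
    · rw [not_not.1 h]
      simp
  have hj := concaveOn_negMulLog.le_map_sum (t := s) (w := fun _ => (s.card : ℝ)⁻¹) (p := p)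
    (fun i _ => by positivity) (by rw [sum_const, nsmul_eq_mul]; field_simp)
    (fun i _ => h0 i)
  simp only [smul_eq_mul] at hj
  rw [← mul_sum, ← mul_sum, hsum, mul_one] at hj
  have h2 : negMulLog (s.card : ℝ)⁻¹ = (s.card : ℝ)⁻¹ * Real.log s.card := by
    unfold negMulLog
    rw [Real.log_inv]
    ring
  rw [h2] at hj
  have h3 : ∑ i ∈ s, negMulLog (p i) ≤ Real.log s.card :=
    le_of_mul_le_mul_left hj (by positivity)
  rw [hsum2]
  exact h3.trans (Real.log_le_log hk (by exact_mod_cast hr))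

/-- the von Neumann entropy of a density matrix of rank at most `r` is at most `log r` -/
lemma Ent94.ent_mat {n : Type*} [Fintype n] [DecidableEq n] {A : Matrix n n ℂ} (hA : A.PosSemidef)
    (htr : A.trace = 1) {r : ℕ} (hr : A.rank ≤ r) :
    ∑ i, negMulLog (hA.1.eigenvalues i) ≤ Real.log r := by
  apply Ent94.ent_vec
  · exact fun i => hA.eigenvalues_nonneg i
  · have h1 := hA.1.trace_eq_sum_eigenvalues
    rw [htr] at h1
    have h2 : ((∑ i, hA.1.eigenvalues i : ℝ) : ℂ) = 1 := by
      rw [h1]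
      push_cast
      rfl
    exact_mod_cast h2
  · rw [hA.1.rank_eq_card_non_zero_eigs, Fintype.card_subtype] at hr
    exact hr

/-- ROW ENT -/
theorem ent_le {n : Type} [Fintype n] [DecidableEq n] (ρ : Matrix n n ℂ) (h : ρ.IsHermitian)
    (hp : ρ.PosSemidef) (htr : ρ.trace = 1) (D : ℕ) (hD : ρ.rank ≤ D) :
    ∑ i, Real.negMulLog (h.eigenvalues i) ≤ Real.log D :=
  Ent94.ent_mat hp htr hD

end Vale.Agent.P356
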