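import Vale.Agent.P356.Defs

/-!
P356: finite-range Hamiltonians, simple eigenvectors.
-/

open Finset

namespace Vale.Agent.P356

/-- A family of Hermitian interaction terms: `h X` acts on `X`, and is zero unless `X` is
nonempty of `ℓ¹`-diameter at most `R`. -/
structure IsLocal {L q : ℕ} (R : ℕ) (h : Finset (Site L) → Op (Site L) q) : Prop where
  acts : ∀ X, ActsOn X (h X)
  herm : ∀ X, (h X).IsHermitian
  range : ∀ X, h X ≠ 0 → X.Nonempty ∧ ∀ x ∈ X, ∀ y ∈ X, d1 x y ≤ R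

/-- The Hamiltonian. -/
def ham {L q : ℕ} (h : Finset (Site L) → Op (Site L) q) : Op (Site L) q := ∑ X, h X

/-- `Ω` is a unit eigenvector of `H`, and its eigenvalue `E` is simple. -/
structure SimpleEigen {V : Type} [Fintype V] [DecidableEq V] {q : ℕ} (H : Op V q) (E : ℝ)
    (Ω : Cfg V q → ℂ) : Prop where
  unit : ∑ x, ‖Ω x‖ ^ 2 = 1
  eig : H.mulVec Ω = (E : ℂ) • Ω
  simple : ∀ v : Cfg V q → ℂ, H.mulVec v = (E : ℂ) • v → ∃ c : ℂ, v = c • Ω

/-- The set `X` has sites in `A` and sites off `A`. -/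
def Crosses {V : Type} (A X : Finset V) : Prop := (∃ x ∈ X, x ∈ A) ∧ ∃ y ∈ X, y ∉ A

end Vale.Agent.P356
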