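import Vale.Agent.P356.Defs

open Finset
open scoped ComplexOrder

namespace Vale.Agent.P356

set_option linter.unusedSectionVars false

variable {V : Type} [Fintype V] [DecidableEq V] {q : ℕ}

namespace PH

def spl (A : Finset V) : Cfg V q ≃ ({z // z ∈ A} → Fin q) × ({z // z ∉ A} → Fin q) :=
  Equiv.piEquivPiSubtypeProd (fun z => z ∈ A) (fun _ => Fin q)

theorem spl_symm (A : Finset V) (a : {z // z ∈ A} → Fin q) (b : {z // z ∉ A} → Fin q) :
    (spl A).symm (a, b) = glue A a b := by
  funext z; simp [spl, glue]

theorem sum_spl (A : Finset V) (f : Cfg V q → ℂ) :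
    ∑ y, f y = ∑ a, ∑ b, f (glue A a b) := by
  rw [← (spl A).symm.sum_comp, Fintype.sum_prod_type]; simp only [spl_symm]

theorem glue_in (A : Finset V) (a : {z // z ∈ A} → Fin q) (b : {z // z ∉ A} → Fin q) :
    (fun z : {z // z ∈ A} => glue A a b z) = a := by
  funext z; simp [glue]

theorem glue_out (A : Finset V) (a : {z // z ∈ A} → Fin q) (b : {z // z ∉ A} → Fin q) :
    (fun z : {z // z ∉ A} => glue A a b z) = b := by
  funext z; simp [glue, z.2]

theorem glue_self (A : Finset V) (x : Cfg V q) :
    glue A (fun z => x z) (fun z => x z) = x := by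
  funext z; by_cases h : z ∈ A <;> simp [glue, h]

theorem mulA (A : Finset V) (HA : Op V q) (hA : ActsOn A HA) (b0 : {z // z ∉ A} → Fin q)
    (u : ({z // z ∈ A} → Fin q) → ℂ) (v : ({z // z ∉ A} → Fin q) → ℂ) :
    HA.mulVec (fun x => u (fun z => x z) * v (fun z => x z)) =
      fun x => ((Matrix.of fun a a' => HA (glue A a b0) (glue A a' b0)).mulVec u) (fun z => x z) *
        v (fun z => x z) := by
  funext x
  simp only [Matrix.mulVec, dotProduct, Matrix.of_apply]
  rw [sum_spl A, Finset.sum_mul]
  refine Finset.sum_congr rfl fun a _ => ?_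
  rw [Finset.sum_eq_single (fun z : {z // z ∉ A} => x z)]
  · rw [glue_in, glue_out]
    have : HA x (glue A a fun z => x z) =
        HA (glue A (fun z => x z) b0) (glue A a b0) := by
      apply hA.2
      · intro z hz; simp [glue, hz]
      · intro z hz; simp [glue, hz]
    rw [this]; ring
  · intro b _ hb
    have : HA x (glue A a b) = 0 := by
      apply hA.1
      by_contra hcon
      push Not at hcon
      apply hb
      funext z
      have := hcon z z.2
      simp only [glue, z.2, dif_neg, not_false_eq_true] at this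
      exact this.symm
    rw [this, zero_mul]
  · intro h; exact absurd (Finset.mem_univ _) h

theorem mulB (A : Finset V) (HB : Op V q) (hB : ActsOn Aᶜ HB) (a0 : {z // z ∈ A} → Fin q)
    (u : ({z // z ∈ A} → Fin q) → ℂ) (v : ({z // z ∉ A} → Fin q) → ℂ) :
    HB.mulVec (fun x => u (fun z => x z) * v (fun z => x z)) =
      fun x => u (fun z => x z) *
        ((Matrix.of fun b b' => HB (glue A a0 b) (glue A a0 b')).mulVec v) (fun z => x z) := by
  funext x
  simp only [Matrix.mulVec, dotProduct, Matrix.of_apply]
  rw [sum_spl A, Finset.sum_comm, Finset.mul_sum]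
  refine Finset.sum_congr rfl fun b _ => ?_
  rw [Finset.sum_eq_single (fun z : {z // z ∈ A} => x z)]
  · rw [glue_in, glue_out]
    have : HB x (glue A (fun z => x z) b) =
        HB (glue A a0 (fun z => x z)) (glue A a0 b) := by
      apply hB.2
      · intro z hz
        have hz' : z ∉ A := by simpa using hz
        simp [glue, hz']
      · intro z hz
        have hz' : z ∈ A := by simpa using hz
        simp [glue, hz']
    rw [this]; ring
  · intro a _ ha
    have : HB x (glue A a b) = 0 := by
      apply hB.1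
      by_contra hcon
      push Not at hcon
      apply ha
      funext z
      have := hcon z (by simp)
      simp only [glue, z.2, dif_pos] at this
      exact this.symm
    rw [this, zero_mul]
  · intro h; exact absurd (Finset.mem_univ _) h

/-- a vector orthogonal to all eigenvectors is zero -/
theorem eig_complete {n : Type} [Fintype n] [DecidableEq n] (M : Matrix n n ℂ)
    (h : M.IsHermitian) (f : n → ℂ)
    (hf : ∀ i, ∑ a, star (h.eigenvectorBasis i a) * f a = 0) : f = 0 := by
  have key : (WithLp.toLp 2 f : EuclideanSpace ℂ n) = 0 := by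
    apply h.eigenvectorBasis.repr.injective
    ext i
    rw [OrthonormalBasis.repr_apply_apply]
    have := hf i
    simp only [map_zero, PiLp.zero_apply, PiLp.inner_apply, RCLike.inner_apply]
    rw [← this]
    refine Finset.sum_congr rfl fun a _ => ?_
    simp [mul_comm]
  funext a
  have := congrArg (fun g : EuclideanSpace ℂ n => g a) key
  simpa using this

end PH

open PH in
theorem prod_vec (A : Finset V) (HA HB : Op V q) (hA : ActsOn A HA) (hB : ActsOn Aᶜ HB)
    (hermA : HA.IsHermitian) (hermB : HB.IsHermitian) (Ω : Cfg V q → ℂ) (hne : Ω ≠ 0) (e : ℝ)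
    (hΩ : (HA + HB).mulVec Ω = (e : ℂ) • Ω) :
    ∃ (u : ({z // z ∈ A} → Fin q) → ℂ) (v : ({z // z ∉ A} → Fin q) → ℂ),
      (HA + HB).mulVec (fun x => u (fun z => x z) * v (fun z => x z)) =
        (e : ℂ) • (fun x : Cfg V q => u (fun z => x z) * v (fun z => x z)) ∧
      ∑ x : Cfg V q, star (u (fun z => x z) * v (fun z => x z)) * Ω x ≠ 0 := by
  obtain ⟨x0, hx0⟩ : ∃ x, Ω x ≠ 0 := by
    by_contra h
    push Not at h
    exact hne (funext h)
  set kA : Matrix ({z // z ∈ A} → Fin q) ({z // z ∈ A} → Fin q) ℂ :=
    Matrix.of fun a a' => HA (glue A a (fun z => x0 z)) (glue A a' (fun z => x0 z)) with hkA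
  set kB : Matrix ({z // z ∉ A} → Fin q) ({z // z ∉ A} → Fin q) ℂ :=
    Matrix.of fun b b' => HB (glue A (fun z => x0 z) b) (glue A (fun z => x0 z) b') with hkB
  have hkAh : kA.IsHermitian := by
    ext a a'
    simp only [hkA, Matrix.conjTranspose_apply, Matrix.of_apply]
    exact hermA.apply _ _
  have hkBh : kB.IsHermitian := by
    ext a a'
    simp only [hkB, Matrix.conjTranspose_apply, Matrix.of_apply]
    exact hermB.apply _ _
  -- nonzero overlap
  obtain ⟨i, j, hij⟩ : ∃ i j, ∑ x : Cfg V q,
      star (hkAh.eigenvectorBasis i (fun z => x z) * hkBh.eigenvectorBasis j (fun z => x z)) * Ω x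
        ≠ 0 := by
    by_contra hcon
    push Not at hcon
    apply hne
    have h1 : ∀ i, (fun b => ∑ a, star (hkAh.eigenvectorBasis i a) * Ω (glue A a b)) = 0 := by
      intro i
      apply eig_complete kB hkBh
      intro j
      have := hcon i j
      rw [sum_spl A, Finset.sum_comm] at this
      simp only [glue_in, glue_out] at this
      rw [← this]
      refine Finset.sum_congr rfl fun b _ => ?_
      rw [Finset.mul_sum]
      refine Finset.sum_congr rfl fun a _ => ?_
      rw [star_mul']; ring
    have h2 : ∀ b, (fun a => Ω (glue A a b)) = 0 := by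
      intro b
      apply eig_complete kA hkAh
      intro i
      exact congrFun (h1 i) b
    funext x
    have := congrFun (h2 (fun z => x z)) (fun z => x z)
    simpa only [glue_self, Pi.zero_apply] using this
  have hmulA : kA.mulVec (⇑(hkAh.eigenvectorBasis i)) =
      (hkAh.eigenvalues i : ℂ) • ⇑(hkAh.eigenvectorBasis i) := by
    rw [hkAh.mulVec_eigenvectorBasis i]; ext a; simp
  have hmulB : kB.mulVec (⇑(hkBh.eigenvectorBasis j)) =
      (hkBh.eigenvalues j : ℂ) • ⇑(hkBh.eigenvectorBasis j) := by
    rw [hkBh.mulVec_eigenvectorBasis j]; ext a; simp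
  set u : ({z // z ∈ A} → Fin q) → ℂ := ⇑(hkAh.eigenvectorBasis i) with hu
  set v : ({z // z ∉ A} → Fin q) → ℂ := ⇑(hkBh.eigenvectorBasis j) with hv
  set φ : Cfg V q → ℂ := fun x => u (fun z => x z) * v (fun z => x z) with hφ
  have hφe : (HA + HB).mulVec φ = ((hkAh.eigenvalues i + hkBh.eigenvalues j : ℝ) : ℂ) • φ := by
    rw [Matrix.add_mulVec, hφ, mulA A HA hA (fun z => x0 z) u v,
      mulB A HB hB (fun z => x0 z) u v, ← hkA, ← hkB, hmulA, hmulB]
    funext x
    simp only [Pi.add_apply, Pi.smul_apply, smul_eq_mul]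
    push_cast
    ring
  have hov : star φ ⬝ᵥ Ω ≠ 0 := by
    simpa only [dotProduct, Pi.star_apply, hφ] using hij
  have hH : (HA + HB).IsHermitian := hermA.add hermB
  have heq : (hkAh.eigenvalues i + hkBh.eigenvalues j : ℝ) = e := by
    have h1 : star ((HA + HB).mulVec φ) ⬝ᵥ Ω = star φ ⬝ᵥ (HA + HB).mulVec Ω := by
      rw [Matrix.star_mulVec, hH.eq, Matrix.dotProduct_mulVec]
    rw [hφe, hΩ, dotProduct_smul, star_smul, smul_dotProduct] at h1
    simp only [smul_eq_mul, Complex.star_def, Complex.conj_ofReal] at h1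
    exact_mod_cast mul_right_cancel₀ hov h1
  refine ⟨u, v, ?_, ?_⟩
  · rw [← heq]; exact hφe
  · simpa only [dotProduct, Pi.star_apply, hφ] using hov

end Vale.Agent.P356
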