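import Vale.Agent.P356.Defs

open Finset

namespace Vale.Agent.P356

variable {V : Type} [Fintype V] [DecidableEq V] {q : ℕ}

namespace RankRow

def res (A N : Finset V) (a : {z // z ∈ A} → Fin q) : {z // z ∈ N ∩ A} → Fin q :=
  fun z => a ⟨z.1, (Finset.mem_inter.mp z.2).2⟩

def ext (A N : Finset V) (d : Fin q) (s : {z // z ∈ N ∩ A} → Fin q) : {z // z ∈ A} → Fin q :=
  fun z => if h : z.1 ∈ N then s ⟨z.1, Finset.mem_inter.mpr ⟨h, z.2⟩⟩ else d

def agree (A N : Finset V) (a a' : {z // z ∈ A} → Fin q) : Prop :=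
  ∀ z : {z // z ∈ A}, z.1 ∉ N → a z = a' z

omit [Fintype V] in
theorem glue_mem {A : Finset V} (a : {z // z ∈ A} → Fin q) (b : {z // z ∉ A} → Fin q) {z : V}
    (hz : z ∈ A) : glue A a b z = a ⟨z, hz⟩ := by simp [glue, hz]

omit [Fintype V] in
theorem glue_notMem {A : Finset V} (a : {z // z ∈ A} → Fin q) (b : {z // z ∉ A} → Fin q) {z : V}
    (hz : z ∉ A) : glue A a b z = b ⟨z, hz⟩ := by simp [glue, hz]

omit [Fintype V] in
theorem ext_res {A N : Finset V} (d : Fin q) (a : {z // z ∈ A} → Fin q) {z : V} (hz : z ∈ A)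
    (hN : z ∈ N) : ext A N d (res A N a) ⟨z, hz⟩ = a ⟨z, hz⟩ := by simp [ext, res, hN]

omit [Fintype V] in
theorem ext_off {A N : Finset V} (d : Fin q) (s : {z // z ∈ N ∩ A} → Fin q) {z : V} (hz : z ∈ A)
    (hN : z ∉ N) : ext A N d s ⟨z, hz⟩ = d := by simp [ext, hN]

open Classical in
omit [Fintype V] in
theorem key {A N : Finset V} {B : Op V q} (hB : ActsOn N B) (d : Fin q)
    (a a' : {z // z ∈ A} → Fin q) (b b' : {z // z ∉ A} → Fin q) :
    B (glue A a b) (glue A a' b') = if agree A N a a' then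
      B (glue A (ext A N d (res A N a)) b) (glue A (ext A N d (res A N a')) b') else 0 := by
  split_ifs with h
  · by_cases hb : ∀ z : {z // z ∉ A}, z.1 ∉ N → b z = b' z
    · refine hB.2 _ _ _ _ ?_ ?_
      · intro z hz
        by_cases hA : z ∈ A
        · simp only [glue_mem _ _ hA, ext_res d _ hA hz, and_self]
        · simp only [glue_notMem _ _ hA, and_self]
      · intro z hz
        by_cases hA : z ∈ A
        · simp only [glue_mem _ _ hA, ext_off d _ hA hz]
          exact ⟨h ⟨z, hA⟩ hz, trivial⟩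
        · simp only [glue_notMem _ _ hA]
          exact ⟨hb ⟨z, hA⟩ hz, hb ⟨z, hA⟩ hz⟩
    · push Not at hb
      obtain ⟨⟨z, hA⟩, hz, hne⟩ := hb
      rw [hB.1 _ _ ⟨z, hz, by simpa only [glue_notMem _ _ hA] using hne⟩,
        hB.1 _ _ ⟨z, hz, by simpa only [glue_notMem _ _ hA] using hne⟩]
  · unfold agree at h
    push Not at h
    obtain ⟨⟨z, hA⟩, hz, hne⟩ := h
    exact hB.1 _ _ ⟨z, hz, by simpa only [glue_mem _ _ hA] using hne⟩

theorem sum_glue (A : Finset V) (f : Cfg V q → ℂ) :
    ∑ x, f x = ∑ a : {z // z ∈ A} → Fin q, ∑ b : {z // z ∉ A} → Fin q, f (glue A a b) := by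
  rw [← (Equiv.piEquivPiSubtypeProd (fun z => z ∈ A) (fun _ => Fin q)).symm.sum_comp f,
    Fintype.sum_prod_type]
  rfl

open Classical in
theorem rank_pos (A N : Finset V) (B : Op V q) (hB : ActsOn N B) (d : Fin q)
    (u : ({z // z ∈ A} → Fin q) → ℂ) (v : ({z // z ∉ A} → Fin q) → ℂ) :
    (coefM A (B.mulVec fun x => u (fun z => x z) * v (fun z => x z))).rank
      ≤ q ^ (2 * (N ∩ A).card) := by
  set I := {z // z ∈ N ∩ A} → Fin q
  let P : Matrix ({z // z ∈ A} → Fin q) (I × I) ℂ := Matrix.of fun a st =>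
    ∑ a' : {z // z ∈ A} → Fin q, if st = (res A N a, res A N a') ∧ agree A N a a' then u a' else 0
  let Q : Matrix (I × I) ({z // z ∉ A} → Fin q) ℂ := Matrix.of fun st b =>
    ∑ b' : {z // z ∉ A} → Fin q,
      B (glue A (ext A N d st.1) b) (glue A (ext A N d st.2) b') * v b'
  have hPQ : coefM A (B.mulVec fun x => u (fun z => x z) * v (fun z => x z)) = P * Q := by
    ext a b
    have h1 : coefM A (B.mulVec fun x => u (fun z => x z) * v (fun z => x z)) a b =
        ∑ a' : {z // z ∈ A} → Fin q, ∑ b' : {z // z ∉ A} → Fin q,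
          B (glue A a b) (glue A a' b') * (u a' * v b') := by
      simp only [coefM, Matrix.of_apply, Matrix.mulVec, dotProduct]
      rw [sum_glue A]
      refine Finset.sum_congr rfl fun a' _ => ?_
      refine Finset.sum_congr rfl fun b' _ => ?_
      have e1 : (fun z : {z // z ∈ A} => glue A a' b' z) = a' := by
        funext z; exact glue_mem _ _ z.2
      have e2 : (fun z : {z // z ∉ A} => glue A a' b' z) = b' := by
        funext z; exact glue_notMem _ _ z.2
      rw [e1, e2]
    rw [h1]
    symm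
    rw [Matrix.mul_apply]
    have h2 : ∀ st : I × I, P a st * Q st b = ∑ a' : {z // z ∈ A} → Fin q,
        (if st = (res A N a, res A N a') ∧ agree A N a a' then u a' else 0) * Q st b := fun st => by
      simp only [P, Matrix.of_apply, Finset.sum_mul]
    rw [Finset.sum_congr rfl fun st _ => h2 st, Finset.sum_comm]
    refine Finset.sum_congr rfl fun a' _ => ?_
    rw [Finset.sum_eq_single (res A N a, res A N a')]
    · simp only [true_and, Q, Matrix.of_apply]
      rw [Finset.mul_sum]
      refine Finset.sum_congr rfl fun b' _ => ?_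
      rw [key hB d a a' b b']
      split_ifs with h
      · ring
      · ring
    · intro st _ hst
      rw [if_neg (fun h => hst h.1), zero_mul]
    · intro h
      exact absurd (Finset.mem_univ _) h
  rw [hPQ]
  refine (Matrix.rank_mul_le_left P Q).trans ((Matrix.rank_le_card_width P).trans ?_)
  have hI : Fintype.card I = q ^ (N ∩ A).card := by
    rw [Fintype.card_fun, Fintype.card_fin, Fintype.card_coe]
  rw [Fintype.card_prod, two_mul, pow_add, hI]

end RankRow

open RankRow in
/-- ROW RANK (Rank.lean): with `I = (N ∩ A → Fin q)`, the matrix factors through `I × I`. -/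
theorem rank_le (A N : Finset V) (B : Op V q) (hB : ActsOn N B)
    (u : ({z // z ∈ A} → Fin q) → ℂ) (v : ({z // z ∉ A} → Fin q) → ℂ) :
    (coefM A (B.mulVec fun x => u (fun z => x z) * v (fun z => x z))).rank
      ≤ q ^ (2 * (N ∩ A).card) := by
  rcases Nat.eq_zero_or_pos q with hq | hq
  · refine (Matrix.rank_le_card_height _).trans ?_
    subst hq
    rcases A.eq_empty_or_nonempty with hA | hA
    · subst hA
      simp
    · rw [Fintype.card_fun, Fintype.card_fin, Fintype.card_coe, zero_pow hA.card_pos.ne']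
      exact Nat.zero_le _
  · exact rank_pos A N B hB ⟨0, hq⟩ u v

end Vale.Agent.P356
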