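import Vale.Agent.P356.Local
import Vale.Agent.P356.Act
import Vale.Agent.P356.Ent
import Vale.Agent.P356.Rank
import Vale.Agent.P356.Prod
import Vale.Agent.P356.Ball
import Vale.Agent.P356.Cyc

/-!
P356: the assembly.
-/

open Finset Matrix
open scoped ComplexOrder

namespace Vale.Agent.P356

section gen

variable {V : Type} [Fintype V] [DecidableEq V] {q : ℕ}

omit [Fintype V] [DecidableEq V] in
theorem acts_zero (X : Finset V) : ActsOn X (0 : Op V q) :=
  ⟨fun _ _ _ => rfl, fun _ _ _ _ _ _ => rfl⟩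

omit [Fintype V] [DecidableEq V] in
theorem acts_add {X : Finset V} {h k : Op V q} (hh : ActsOn X h) (hk : ActsOn X k) :
    ActsOn X (h + k) := by
  refine ⟨fun x y hxy => ?_, fun x y x' y' h1 h2 => ?_⟩
  · rw [Matrix.add_apply, hh.1 x y hxy, hk.1 x y hxy, add_zero]
  · rw [Matrix.add_apply, Matrix.add_apply, hh.2 x y x' y' h1 h2, hk.2 x y x' y' h1 h2]

omit [Fintype V] [DecidableEq V] in
theorem acts_sum {ι : Type*} {X : Finset V} (s : Finset ι) (f : ι → Op V q)
    (h : ∀ i ∈ s, ActsOn X (f i)) : ActsOn X (∑ i ∈ s, f i) := by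
  classical
  induction s using Finset.induction_on with
  | empty => simpa using acts_zero X
  | insert a s ha ih =>
    rw [Finset.sum_insert ha]
    exact acts_add (h a (mem_insert_self a s)) (ih fun i hi => h i (mem_insert_of_mem hi))

theorem acts_adjoin {X : Finset V} {K : Op V q} (hK : ActsOn X K) (B : Op V q)
    (hB : B ∈ Algebra.adjoin ℂ {K}) : ActsOn X B := by
  induction hB using Algebra.adjoin_induction with
  | mem x hx =>
    rw [Set.mem_singleton_iff] at hx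
    rw [hx]; exact hK
  | algebraMap r => rw [Algebra.algebraMap_eq_smul_one]; exact ActsOn.scalar X r
  | add x y _ _ hx hy => exact acts_add hx hy
  | mul x y _ _ hx hy => exact hx.mul hy

omit [Fintype V] [DecidableEq V] in
theorem herm_sum {ι : Type*} (s : Finset ι) (f : ι → Op V q)
    (h : ∀ i ∈ s, (f i).IsHermitian) : (∑ i ∈ s, f i).IsHermitian := by
  classical
  induction s using Finset.induction_on with
  | empty => simp
  | insert a s ha ih =>
    rw [Finset.sum_insert ha]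
    exact (h a (mem_insert_self a s)).add (ih fun i hi => h i (mem_insert_of_mem hi))

theorem dot_unit {Ω : Cfg V q → ℂ} (hu : ∑ x, ‖Ω x‖ ^ 2 = 1) : star Ω ⬝ᵥ Ω = 1 := by
  rw [dotProduct]
  have h1 : ∀ x, star Ω x * Ω x = ((‖Ω x‖ ^ 2 : ℝ) : ℂ) := by
    intro x
    rw [Pi.star_apply, Complex.star_def, ← Complex.normSq_eq_conj_mul_self,
      Complex.normSq_eq_norm_sq]
  rw [Finset.sum_congr rfl fun x _ => h1 x, ← Complex.ofReal_sum, hu]
  simp

/-- An eigenvalue of a Hermitian matrix is real. -/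
theorem eig_real {H : Op V q} (hH : H.IsHermitian) {Ω : Cfg V q → ℂ}
    (hu : ∑ x, ‖Ω x‖ ^ 2 = 1) {c : ℂ} (hc : H.mulVec Ω = c • Ω) : ((c.re : ℝ) : ℂ) = c := by
  have h1 : star Ω ⬝ᵥ H.mulVec Ω = c := by
    rw [hc, dotProduct_smul, dot_unit hu, smul_eq_mul, mul_one]
  have h2 : star c = c := by
    conv_lhs => rw [← h1]
    rw [star_dotProduct, star_star, ← h1, star_mulVec, hH.eq, ← dotProduct_mulVec]
  rw [Complex.star_def] at h2
  exact Complex.conj_eq_iff_re.1 h2

theorem trace_rho (A : Finset V) {Ω : Cfg V q → ℂ} (hu : ∑ x, ‖Ω x‖ ^ 2 = 1) :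
    (rho A Ω).trace = 1 := by
  rw [← dot_unit hu]
  unfold Matrix.trace dotProduct
  simp only [Matrix.diag_apply, rho, Matrix.of_apply]
  rw [← Fintype.sum_prod_type']
  refine Fintype.sum_equiv (Equiv.piEquivPiSubtypeProd (fun z => z ∈ A) (fun _ => Fin q)).symm
    _ _ fun p => ?_
  have h1 : (Equiv.piEquivPiSubtypeProd (fun z => z ∈ A) (fun _ => Fin q)).symm p
      = glue A p.1 p.2 := by
    funext z
    simp [glue, Equiv.piEquivPiSubtypeProd]
  rw [h1, Pi.star_apply]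
  ring

/-- The core estimate: `H = HA + HB + K`, `K` acts on `N` and commutes with `H`. -/
theorem core (A N : Finset V) (HA HB K : Op V q) (hA : ActsOn A HA) (hB : ActsOn Aᶜ HB)
    (hK : ActsOn N K) (hermA : HA.IsHermitian) (hermB : HB.IsHermitian) (hermK : K.IsHermitian)
    (hc : Commute K (HA + HB + K)) (E : ℝ) (Ω : Cfg V q → ℂ)
    (hΩ : SimpleEigen (HA + HB + K) E Ω) :
    entropy A Ω ≤ 2 * (N.card : ℝ) * Real.log q := by
  have hne : Ω ≠ 0 := by
    rintro rfl
    have := hΩ.unit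
    simp at this
  have hc0 : Commute K (HA + HB) := by
    have h1 : HA + HB = (HA + HB + K) - K := by abel
    rw [h1]
    exact hc.sub_right (Commute.refl K)
  obtain ⟨c, hcΩ⟩ := hΩ.simple (K.mulVec Ω) (by
    rw [mulVec_mulVec, ← hc.eq, ← mulVec_mulVec, hΩ.eig, mulVec_smul])
  have h0 : (HA + HB).mulVec Ω = ((E : ℂ) - c) • Ω := by
    have h1 := hΩ.eig
    rw [add_mulVec, hcΩ] at h1
    rw [sub_smul, ← h1]
    abel
  have hre := eig_real (hermA.add hermB) hΩ.unit h0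
  set e : ℝ := ((E : ℂ) - c).re with he
  rw [← hre] at h0
  obtain ⟨u, v, h1, h2⟩ := prod_vec A HA HB hA hB hermA hermB Ω hne e h0
  obtain ⟨B, hB1, hB2⟩ := cyc K (HA + HB) hermK hc0 Ω E hΩ.eig hne hΩ.simple e h0 _ h1 h2
  have h3 := rank_le A N B (acts_adjoin hK B hB1) u v
  rw [← hB2] at h3
  have h4 : (rho A Ω).rank ≤ q ^ (2 * (N ∩ A).card) := by
    rw [rho_eq, Matrix.rank_self_mul_conjTranspose]
    exact h3
  have h5 : (rho A Ω).PosSemidef := by
    rw [rho_eq]
    exact Matrix.posSemidef_self_mul_conjTranspose _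
  have h6 := ent_le (rho A Ω) (rho_herm A Ω) h5 (trace_rho A hΩ.unit) _ h4
  refine le_trans h6 ?_
  rw [Nat.cast_pow, Real.log_pow]
  push_cast
  have h7 : ((N ∩ A).card : ℝ) ≤ N.card := by exact_mod_cast card_le_card inter_subset_left
  have h8 : (0 : ℝ) ≤ Real.log q := Real.log_natCast_nonneg q
  nlinarith

end gen

/-- The collar theorem. -/
theorem collar {L q R : ℕ} (h : Finset (Site L) → Op (Site L) q) (hl : IsLocal R h) (E : ℝ)
    (Ω : Cfg (Site L) q → ℂ) (hΩ : SimpleEigen (ham h) E Ω) (A : Finset (Site L)) (w : ℕ)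
    (T : Finset (Finset (Site L))) (hT : ∀ X, h X ≠ 0 → Crosses A X → X ∈ T)
    (hw : ∀ X ∈ T, ∀ x ∈ X, ∃ p ∈ bdry A, d1 x p.1 ≤ w)
    (hc : Commute (∑ X ∈ T, h X) (ham h)) :
    entropy A Ω ≤ 2 * (2 * (w : ℝ) + 1) ^ 2 * ((bdry A).card : ℝ) * Real.log q := by
  classical
  set K := ∑ X ∈ T, h X with hKd
  set HA := ∑ X ∈ Tᶜ.filter (fun X => X ⊆ A), h X with hHA
  set HB := ∑ X ∈ Tᶜ.filter (fun X => ¬ X ⊆ A), h X with hHB
  set N : Finset (Site L) := T.biUnion id with hN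
  have hsum : ham h = HA + HB + K := by
    rw [hHA, hHB, hKd, Finset.sum_filter_add_sum_filter_not, add_comm]
    unfold ham
    rw [Finset.sum_add_sum_compl]
  have hA : ActsOn A HA := acts_sum _ _ fun X hX => (hl.acts X).mono (mem_filter.1 hX).2
  have hB : ActsOn Aᶜ HB := by
    refine acts_sum _ _ fun X hX => ?_
    obtain ⟨hX1, hX2⟩ := mem_filter.1 hX
    by_cases h0 : h X = 0
    · rw [h0]; exact acts_zero _
    · refine (hl.acts X).mono fun x hx => ?_
      rw [mem_compl]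
      intro hxA
      refine (mem_compl.1 hX1) (hT X h0 ⟨⟨x, hx, hxA⟩, ?_⟩)
      by_contra hcon
      push Not at hcon
      exact hX2 fun y hy => hcon y hy
  have hK : ActsOn N K := by
    refine acts_sum _ _ fun X hX => (hl.acts X).mono fun x hx => ?_
    rw [hN, mem_biUnion]
    exact ⟨X, hX, hx⟩
  rw [hsum] at hΩ hc
  have h1 := core A N HA HB K hA hB hK (herm_sum _ _ fun X _ => hl.herm X)
    (herm_sum _ _ fun X _ => hl.herm X) (herm_sum _ _ fun X _ => hl.herm X) hc E Ω hΩ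
  have h2 : N.card ≤ (2 * w + 1) ^ 2 * (bdry A).card := by
    refine near_card A w N fun x hx => ?_
    rw [hN, mem_biUnion] at hx
    obtain ⟨X, hX, hxX⟩ := hx
    exact hw X hX x hxX
  have h3 : (N.card : ℝ) ≤ (2 * (w : ℝ) + 1) ^ 2 * ((bdry A).card : ℝ) := by exact_mod_cast h2
  have h4 : (0 : ℝ) ≤ Real.log q := Real.log_natCast_nonneg q
  refine h1.trans ?_
  have h5 := mul_le_mul_of_nonneg_right h3 h4
  nlinarith

/-- Clusters: terms of different clusters commute, clusters have diameter at most `D`. -/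
theorem clusters {L q R : ℕ} (h : Finset (Site L) → Op (Site L) q) (hl : IsLocal R h) (E : ℝ)
    (Ω : Cfg (Site L) q → ℂ) (hΩ : SimpleEigen (ham h) E Ω) (D : ℕ)
    (cl : Finset (Site L) → ℕ)
    (hcomm : ∀ X Y, cl X ≠ cl Y → Commute (h X) (h Y))
    (hD : ∀ X Y, h X ≠ 0 → h Y ≠ 0 → cl X = cl Y → ∀ x ∈ X, ∀ y ∈ Y, d1 x y ≤ D)
    (A : Finset (Site L)) :
    entropy A Ω ≤ 2 * (4 * (D : ℝ) + 1) ^ 2 * ((bdry A).card : ℝ) * Real.log q := by
  classical
  set T : Finset (Finset (Site L)) :=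
    univ.filter fun X => h X ≠ 0 ∧ ∃ Y, h Y ≠ 0 ∧ Crosses A Y ∧ cl Y = cl X with hTd
  have h1 := collar h hl E Ω hΩ A (2 * D) T
    (fun X hX hcr => mem_filter.2 ⟨mem_univ _, hX, X, hX, hcr, rfl⟩) ?_ ?_
  · refine h1.trans (le_of_eq ?_)
    push_cast
    ring
  · intro X hX x hx
    obtain ⟨-, hX0, Y, hY0, ⟨⟨a, haY, haA⟩, b, hbY, hbA⟩, hcl⟩ := mem_filter.1 hX
    obtain ⟨p, hp, hap⟩ := exists_bdry A a b haA hbA
    refine ⟨p, hp, ?_⟩
    have h2 := hD X Y hX0 hY0 hcl.symm x hx a haY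
    have h3 := hD Y Y hY0 hY0 rfl a haY b hbY
    have h4 := d1_triangle x a p.1
    omega
  · unfold ham
    rw [← Finset.sum_add_sum_compl T]
    refine (Commute.refl _).add_right ?_
    refine Commute.sum_left _ _ _ fun X hX => Commute.sum_right _ _ _ fun Z hZ => ?_
    obtain ⟨-, hX0, Y, hY0, hcr, hcl⟩ := mem_filter.1 hX
    by_cases hZ0 : h Z = 0
    · rw [hZ0]; exact Commute.zero_right _
    · refine hcomm X Z fun hXZ => (mem_compl.1 hZ) ?_
      exact mem_filter.2 ⟨mem_univ _, hZ0, Y, hY0, hcr, hcl.trans hXZ⟩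

/-- The conserved interaction across the cut. -/
theorem conserved {L q R : ℕ} (h : Finset (Site L) → Op (Site L) q) (hl : IsLocal R h) (E : ℝ)
    (Ω : Cfg (Site L) q → ℂ) (hΩ : SimpleEigen (ham h) E Ω) (A : Finset (Site L))
    (T : Finset (Finset (Site L))) (hT : ∀ X, X ∈ T ↔ Crosses A X)
    (hc : Commute (∑ X ∈ T, h X) (ham h)) :
    entropy A Ω ≤ 2 * (4 * (R : ℝ) + 1) ^ 2 * ((bdry A).card : ℝ) * Real.log q := by
  classical
  set T' := T.filter fun X => h X ≠ 0 with hT'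
  have hs : ∑ X ∈ T', h X = ∑ X ∈ T, h X := by
    rw [hT']
    exact Finset.sum_filter_ne_zero T
  have h1 := collar h hl E Ω hΩ A (2 * R) T'
    (fun X hX hcr => mem_filter.2 ⟨(hT X).2 hcr, hX⟩) ?_ (by rw [hs]; exact hc)
  · refine h1.trans (le_of_eq ?_)
    push_cast
    ring
  · intro X hX x hx
    obtain ⟨hX1, hX0⟩ := mem_filter.1 hX
    obtain ⟨⟨a, haY, haA⟩, b, hbY, hbA⟩ := (hT X).1 hX1
    obtain ⟨p, hp, hap⟩ := exists_bdry A a b haA hbA
    refine ⟨p, hp, ?_⟩
    have h2 := (hl.range X hX0).2 x hx a haY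
    have h3 := (hl.range X hX0).2 a haY b hbY
    have h4 := d1_triangle x a p.1
    omega

/-- Commuting interactions. -/
theorem commuting {L q R : ℕ} (h : Finset (Site L) → Op (Site L) q) (hl : IsLocal R h) (E : ℝ)
    (Ω : Cfg (Site L) q → ℂ) (hΩ : SimpleEigen (ham h) E Ω)
    (hc : ∀ X Y, Commute (h X) (h Y)) (A : Finset (Site L)) :
    entropy A Ω ≤ 2 * (4 * (R : ℝ) + 1) ^ 2 * ((bdry A).card : ℝ) * Real.log q := by
  classical
  refine conserved h hl E Ω hΩ A (univ.filter fun X => Crosses A X) (fun X => by simp) ?_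
  exact Commute.sum_left _ _ _ fun X _ => Commute.sum_right _ _ _ fun Y _ => hc X Y

end Vale.Agent.P356
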